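import Crest.Agent.R271.Defs

/-! # Row 271, block S3: Jacobians in homogeneous coordinates. -/

set_option autoImplicit false
set_option linter.unusedSectionVars false

open Set MvPolynomial

namespace Crest.Agent.R271

variable {n : ℕ} {K : Type} [Field K] [Algebra ℂ K]

local notation "𝐝" => KaehlerDifferential.D ℂ K

/-- the matrix with columns `(t j, d t j)` -/
noncomputable def s3M (b : Module.Basis (Fin n) K Ω[K⁄ℂ]) (t : Fin (n + 1) → K) : Matrix (Fin (n + 1)) (Fin (n + 1)) K :=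
  Matrix.of fun r j => (Fin.cons (t j) (b.repr (𝐝 (t j))) : Fin (n + 1) → K) r

theorem s3M_smul (b : Module.Basis (Fin n) K Ω[K⁄ℂ]) (t : Fin (n + 1) → K) {c : K} (hc : c ≠ 0) :
    (s3M b fun j => c * t j).det = c ^ (n + 1) * (s3M b t).det := by
  rw [Matrix.det_eq_of_forall_row_eq_smul_add_const (B := c • s3M b t)
    (Fin.cons 0 fun r => b.repr (𝐝 c) r / c : Fin (n + 1) → K) 0 rfl, Matrix.det_smul, Fintype.card_fin]
  intro r j
  refine Fin.cases ?_ (fun r => ?_) r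
  · simp [s3M]
  · simp [s3M]; field_simp

theorem s3M_cons (b : Module.Basis (Fin n) K Ω[K⁄ℂ]) (z : Fin n → K) :
    (s3M b (Fin.cons 1 z)).det = (b.toMatrix fun j => 𝐝 (z j)).det := by
  rw [Matrix.det_succ_column_zero, Fin.sum_univ_succ]
  simp only [s3M, Matrix.of_apply, Fin.cons_zero, Fin.cons_succ, Derivation.map_one_eq_zero, map_zero,
    Finsupp.coe_zero, Pi.zero_apply, mul_zero, zero_mul, Finset.sum_const_zero, add_zero, Fin.val_zero, pow_zero,
    one_mul, Fin.succAbove_zero]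
  congr 1

theorem s3_det_mem {m : ℕ} (O : Subalgebra ℂ K) {M : Matrix (Fin m) (Fin m) K} (h : ∀ i j, M i j ∈ O) :
    M.det ∈ O := by
  rw [Matrix.det_apply']
  exact O.sum_mem fun σ _ => O.mul_mem (intCast_mem O _) (O.prod_mem fun i _ => h _ _)

theorem s3_chain {ι : Type} [Fintype ι] (w : ι → K) (P : MvPolynomial ι ℂ) :
    𝐝 (aeval w P) = ∑ l, aeval w (pderiv l P) • 𝐝 (w l) := by
  classical
  induction P using MvPolynomial.induction_on with
  | C a => simp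
  | add f g hf hg => simp [hf, hg, add_smul, Finset.sum_add_distrib]
  | mul_X f i hf =>
    simp only [map_mul, aeval_X, Derivation.leibniz, hf, smul_eq_mul, map_add, add_smul, Finset.sum_add_distrib,
      Finset.smul_sum, smul_smul, pderiv_X]
    congr 1
    rw [Finset.sum_eq_single i (fun l _ hl => by simp [hl.symm]) (by simp)]
    simp

theorem s3_col {O : Subalgebra ℂ K} {b : Module.Basis (Fin n) K Ω[K⁄ℂ]} (hb : ∀ a ∈ O, ∀ r, b.repr (𝐝 a) r ∈ O)
    {w : Fin (n + 1) → K} (hw : ∀ j, w j ∈ O) {P : MvPolynomial (Fin (n + 1)) ℂ} {d : ℕ} (hP : P.IsHomogeneous d)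
    {ρ ϖ : K} (hϖ : ϖ ∈ O) (h1 : aeval w P = ρ * ϖ) (h2 : ∀ r, ∃ o ∈ O, b.repr (𝐝 (aeval w P)) r = ρ * o)
    (j : Fin (n + 1)) : ∃ o ∈ O, aeval w (pderiv j P) * (s3M b w).det = ρ * o := by
  choose o o1 o2 using h2
  have h3 := Matrix.det_updateCol_sum (s3M b w) j fun l => aeval w (pderiv l P)
  have h4 : (fun r => ∑ l, aeval w (pderiv l P) • s3M b w r l) = ρ • (Fin.cons (d * ϖ) o : Fin (n + 1) → K) := by
    ext r
    refine Fin.cases ?_ (fun r => ?_) r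
    · have := congrArg (aeval w) hP.sum_X_mul_pderiv
      simp only [map_sum, map_mul, aeval_X, h1, nsmul_eq_mul] at this
      simp only [s3M, Matrix.of_apply, Fin.cons_zero, smul_eq_mul, Pi.smul_apply, mul_comm _ (w _), this]
      simp only [map_natCast]; ring
    · have := o2 r
      rw [s3_chain] at this
      simpa [s3M, Finsupp.finsetSum_apply] using this
  rw [h4, Matrix.det_updateCol_smul] at h3
  refine ⟨_, s3_det_mem O fun r l => ?_, h3.symm⟩
  rw [Matrix.updateCol_apply]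
  split_ifs
  · exact Fin.cases (O.mul_mem (natCast_mem O d) hϖ) o1 r
  · exact Fin.cases (hw l) (hb _ (hw l)) r

theorem s3_hom {ι : Type} {w : ι → K} {i : ι} (hi : w i = 1) {π : K} (h : π ∈ Algebra.adjoin ℂ (range w)) :
    ∃ (d : ℕ) (P : MvPolynomial ι ℂ), P.IsHomogeneous d ∧ aeval w P = π := by
  induction h using Algebra.adjoin_induction with
  | mem x hx => obtain ⟨j, rfl⟩ := hx; exact ⟨1, X j, isHomogeneous_X _ _, aeval_X _ _⟩
  | algebraMap c => exact ⟨0, C c, isHomogeneous_C _ _, aeval_C _ _⟩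
  | add x y _ _ hx hy =>
    obtain ⟨d, P, h1, rfl⟩ := hx
    obtain ⟨d', P', h2, rfl⟩ := hy
    exact ⟨d + d', P * X i ^ d' + X i ^ d * P', (h1.mul (isHomogeneous_X_pow _ _)).add
      ((isHomogeneous_X_pow _ _).mul h2), by simp [hi]⟩
  | mul x y _ _ hx hy =>
    obtain ⟨d, P, h1, rfl⟩ := hx
    obtain ⟨d', P', h2, rfl⟩ := hy
    exact ⟨d + d', P * P', h1.mul h2, map_mul _ _ _⟩

/-- The local statement: `O` a discrete valuation ring with uniformiser `ϖ`. -/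
theorem s3_local {O : Subalgebra ℂ K} {ϖ : K} (h0 : ϖ ≠ 0) (hϖ : ϖ ∈ O) (hϖ' : ϖ⁻¹ ∉ O)
    (hu : ∀ a ∈ O, a / ϖ ∉ O → a⁻¹ ∈ O)
    (hf : ∀ a ∈ O, a ≠ 0 → ∃ (e : ℕ) (u : K), u ∈ O ∧ u⁻¹ ∈ O ∧ a = u * ϖ ^ e)
    {b : Module.Basis (Fin n) K Ω[K⁄ℂ]} (hb : ∀ a ∈ O, ∀ r, b.repr (𝐝 a) r ∈ O)
    {w : Fin (n + 1) → K} (hw : ∀ j, w j ∈ O) {i : Fin (n + 1)} (hi : w i = 1) {φ : K}
    (hφ : ∀ π ∈ Algebra.adjoin ℂ (range w), π / ϖ ∈ O → φ * π / ϖ ∈ O)
    (hne : ∃ π ∈ Algebra.adjoin ℂ (range w), π ≠ 0 ∧ π / ϖ ∈ O) : φ * (s3M b w).det ∈ O := by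
  classical
  have hB : ∀ P : MvPolynomial (Fin (n + 1)) ℂ, aeval w P ∈ Algebra.adjoin ℂ (range w) := fun P => by
    rw [Algebra.adjoin_range_eq_range_aeval]; exact ⟨P, rfl⟩
  have hO : Algebra.adjoin ℂ (range w) ≤ O := Algebra.adjoin_le (range_subset_iff.2 hw)
  have ex : ∃ d : ℕ, ∃ P : MvPolynomial (Fin (n + 1)) ℂ, P.IsHomogeneous d ∧ P ≠ 0 ∧ aeval w P / ϖ ∈ O := by
    obtain ⟨π, h1, h2, h3⟩ := hne
    obtain ⟨d, P, h4, rfl⟩ := s3_hom hi h1
    exact ⟨d, P, h4, fun k => h2 (by rw [k, map_zero]), h3⟩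
  obtain ⟨P, p1, p2, p3⟩ := Nat.find_spec ex
  have hd : Nat.find ex ≠ 0 := fun k => by
    rw [k, ← totalDegree_zero_iff_isHomogeneous, totalDegree_eq_zero_iff_eq_C] at p1
    have k1 : coeff 0 P ≠ 0 := fun e => p2 (by rw [p1, e, map_zero])
    rw [p1, aeval_C] at p3
    have := O.mul_mem (O.algebraMap_mem (coeff 0 P)⁻¹) p3
    rw [← mul_div_assoc, ← map_mul, inv_mul_cancel₀ k1, map_one, one_div] at this
    exact hϖ' this
  obtain ⟨j, hj⟩ : ∃ j, pderiv j P ≠ 0 := by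
    by_contra! k
    have := p1.sum_X_mul_pderiv
    simp only [k, mul_zero, Finset.sum_const_zero] at this
    exact p2 ((smul_eq_zero.1 this.symm).resolve_left hd)
  have h1 : aeval w (pderiv j P) / ϖ ∉ O := fun k =>
    Nat.find_min ex (Nat.sub_one_lt hd) ⟨_, p1.pderiv, hj, k⟩
  have h2 : aeval w (pderiv j P) ≠ 0 := fun k => h1 (by rw [k, zero_div]; exact O.zero_mem)
  obtain ⟨o, o1, o2⟩ := s3_col hb hw p1 hϖ (div_mul_cancel₀ _ h0).symm (fun r => by
    by_cases k : aeval w P = 0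
    · exact ⟨0, O.zero_mem, by simp [k]⟩
    obtain ⟨e, u, u1, u2, u3⟩ := hf _ (hO (hB P)) k
    have u4 : u ≠ 0 := fun k' => k (by rw [u3, k', zero_mul])
    refine ⟨ϖ * u⁻¹ * b.repr (𝐝 u) r + e * b.repr (𝐝 ϖ) r, O.add_mem (O.mul_mem (O.mul_mem hϖ u2) (hb _ u1 r))
      (O.mul_mem (natCast_mem O e) (hb _ hϖ r)), ?_⟩
    rw [u3]
    simp only [Derivation.leibniz, Derivation.leibniz_pow, map_add, map_smul, map_nsmul, Finsupp.add_apply,
      Finsupp.smul_apply, smul_eq_mul, nsmul_eq_mul]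
    rcases e with _ | e
    · simp; field_simp
    · simp only [Nat.add_sub_cancel]; field_simp; ring) j
  have h3 := O.mul_mem (O.mul_mem (hφ _ (hB P) p3) o1) (hu _ (hO (hB _)) h1)
  convert h3 using 1
  rw [eq_mul_inv_iff_mul_eq₀ h2]
  linear_combination φ * o2

/-- differentials of the elements of `ℂ[z, U, g⁻¹]` -/
theorem s3_dA (g : GR n K) {O : Subalgebra ℂ K} (hO : g.A ≤ O) {a : K} (ha : a ∈ g.A) :
    𝐝 a ∈ Submodule.span O (range fun j => 𝐝 (g.z j)) := by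
  set Λ := Submodule.span O (range fun j => 𝐝 (g.z j))
  have sm : ∀ c ∈ O, ∀ m ∈ Λ, c • m ∈ Λ := fun c hc m hm => Λ.smul_mem ⟨c, hc⟩ hm
  let S : Subalgebra ℂ K :=
    { carrier := {a | a ∈ O ∧ 𝐝 a ∈ Λ}
      mul_mem' := fun ha hb => ⟨O.mul_mem ha.1 hb.1, by
        rw [Derivation.leibniz]; exact Λ.add_mem (sm _ ha.1 _ hb.2) (sm _ hb.1 _ ha.2)⟩
      add_mem' := fun ha hb => ⟨O.add_mem ha.1 hb.1, by rw [map_add]; exact Λ.add_mem ha.2 hb.2⟩
      algebraMap_mem' := fun c => ⟨O.algebraMap_mem c, by rw [Derivation.map_algebraMap]; exact Λ.zero_mem⟩ }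
  have hA : ∀ x ∈ insert g.g⁻¹ (insert g.U (range g.z)), x ∈ O := fun x hx =>
    hO (by rw [g.A_eq]; exact Algebra.subset_adjoin hx)
  have hz : range g.z ⊆ S := by
    rintro _ ⟨j, rfl⟩
    exact ⟨hA _ (Or.inr (Or.inr ⟨j, rfl⟩)), Submodule.subset_span ⟨j, rfl⟩⟩
  have hUO := hA _ (Or.inr (Or.inl rfl))
  have hQ : ∀ Q : Polynomial (Algebra.adjoin ℂ (range g.z)),
      𝐝 (Polynomial.aeval g.U Q) - Polynomial.aeval g.U (Polynomial.derivative Q) • 𝐝 g.U ∈ Λ := fun Q => by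
    induction Q using Polynomial.induction_on' with
    | add p q hp hq =>
      simp only [map_add, add_smul]
      rw [add_sub_add_comm]; exact Λ.add_mem hp hq
    | monomial k c =>
      have := sm _ (O.pow_mem hUO k) _ (Algebra.adjoin_le hz c.2).2
      convert this using 1
      simp only [Polynomial.derivative_monomial, Polynomial.aeval_monomial, Derivation.leibniz, Derivation.leibniz_pow,
        map_mul, map_natCast, Subalgebra.algebraMap_def, Algebra.algebraMap_self, RingHom.id_apply]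
      module
  have hU : g.U ∈ S := by
    obtain ⟨v, v1, v2⟩ : ∃ v ∈ g.A, v * Polynomial.aeval g.U (Polynomial.derivative
      (minpoly (Algebra.adjoin ℂ (range g.z)) g.U)) = 1 := g.sep
    have := sm _ (hO v1) _ (Λ.neg_mem (hQ (minpoly _ g.U)))
    rw [minpoly.aeval, map_zero, zero_sub, neg_neg, smul_smul] at this
    exact ⟨hUO, by rwa [v2, one_smul] at this⟩
  have hg : g.g ∈ S := Algebra.adjoin_le (insert_subset hU hz) g.g_mem
  have hg' : g.g⁻¹ ∈ S := by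
    have k := hA _ (Or.inl rfl)
    refine ⟨k, ?_⟩
    rw [Derivation.leibniz_inv]
    exact sm _ (O.neg_mem (O.pow_mem k 2)) _ hg.2
  rw [g.A_eq] at ha
  exact (Algebra.adjoin_le (insert_subset hg' (insert_subset hU hz)) ha).2

theorem s3_dq (g : GR n K) {O : Subalgebra ℂ K} (hO : g.A ≤ O) {a c : K} (ha : a ∈ g.A) (hc : c ∈ g.A)
    (hc' : c⁻¹ ∈ O) : 𝐝 (a / c) ∈ Submodule.span O (range fun j => 𝐝 (g.z j)) := by
  set Λ := Submodule.span O (range fun j => 𝐝 (g.z j))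
  have sm : ∀ c ∈ O, ∀ m ∈ Λ, c • m ∈ Λ := fun c hc m hm => Λ.smul_mem ⟨c, hc⟩ hm
  rw [Derivation.leibniz_div]
  exact sm _ (O.pow_mem hc' 2) _ (Λ.sub_mem (sm _ (hO hc) _ (s3_dA g hO ha)) (sm _ (hO ha) _ (s3_dA g hO hc)))

end Crest.Agent.R271
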