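import Crest.Agent.R271.S3.Val

/-! # Row 271, block S3.  Duality for the finite projection. See `Crest/Agent/R271/Blueprint.lean`, section S3. -/

set_option autoImplicit false

open Set

namespace Crest.Agent.R271

variable {n : ℕ} {K : Type} [Field K] [Algebra ℂ K] {v : VM n K} {g : GR n K}

/-- Dedekind's bound: a function with integral traces has poles bounded by the Jacobian -/
theorem s3_dual (hl : v.Link g) (ζ : v.ι) {i : Fin (n + 1)} (hi : g.t i ≠ 0)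
    (hi' : v.ord ζ (g.t i) + g.k * v.L ζ = 0) {b : Module.Basis (Fin n) K Ω[K⁄ℂ]}
    (hb : ∀ a ∈ v.O ζ, ∀ r, b.repr (KaehlerDifferential.D ℂ K a) r ∈ v.O ζ) {φ : K}
    (hB : Algebra.adjoin ℂ (range fun j => g.t j / g.t i) ≤ (IntermediateField.adjoin ℂ (range g.z)).toSubalgebra)
    (hφ : ∀ γ ∈ s3C g i, (Algebra.trace (IntermediateField.adjoin ℂ (range g.z)) K (φ * γ) : K) ∈
      Algebra.adjoin ℂ (range fun j => g.t j / g.t i)) :
    φ * (s3M b fun j => g.t j / g.t i).det ∈ v.O ζ := by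
  obtain ⟨ϖ, p0, p1⟩ := v.unif ζ
  have pm : ∀ f, f / ϖ ∈ v.O ζ ↔ f = 0 ∨ 1 ≤ v.ord ζ f := fun f => by rw [v.s3_div_mem ζ p0, p1]
  have hCO : s3C g i ≤ v.O ζ := by
    rintro f ⟨j, hj⟩
    by_cases e : f = 0
    · rw [e]; exact zero_mem _
    have := (s3_V hl hj ζ).resolve_left (mul_ne_zero e (pow_ne_zero _ hi))
    rw [v.ord_mul ζ _ _ e (pow_ne_zero _ hi), v.s3_pow ζ hi] at this
    rw [v.s3_mem ζ e]
    push_cast at this
    linear_combination this + (j : ℤ) * hi'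
  have hloc : ∀ f ∈ v.O ζ, ∃ a ∈ s3C g i, ∃ c ∈ s3C g i, c ≠ 0 ∧ v.ord ζ c = 0 ∧ f * c = a := fun f hf => by
    obtain ⟨j, a, c, a1, c1, c2, c3, rfl⟩ := s3_loc hl ζ g.k_pos hf
    refine ⟨_, s3C_mem g hi a1, _, s3C_mem g hi c1, div_ne_zero c2 (pow_ne_zero _ hi), ?_, by field_simp⟩
    rw [v.s3_div ζ c2 (pow_ne_zero _ hi), v.s3_pow ζ hi]
    push_cast at c3
    linear_combination c3 - (j : ℤ) * hi'
  set B := Algebra.adjoin ℂ (range fun j => g.t j / g.t i)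
  set K₀ := IntermediateField.adjoin ℂ (range g.z)
  let 𝔮 : Ideal (s3C' g hi) :=
    { carrier := {c | (c : K) / ϖ ∈ v.O ζ}
      add_mem' := fun ha hc => by
        change (_ + _ : K) / ϖ ∈ v.O ζ
        rw [add_div]; exact add_mem ha hc
      zero_mem' := by change (0 : K) / ϖ ∈ v.O ζ; rw [zero_div]; exact zero_mem _
      smul_mem' := fun c a ha => by
        change (_ * _ : K) / ϖ ∈ v.O ζ
        rw [mul_div_assoc]; exact mul_mem (hCO c.2) ha }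
  have hq : ∀ c : s3C' g hi, c ∈ 𝔮 ↔ (c : K) = 0 ∨ 1 ≤ v.ord ζ c := fun c => pm c
  have h1 : ϖ⁻¹ ∉ v.O ζ := by rw [v.s3_mem ζ (inv_ne_zero p0), v.s3_inv ζ p0, p1]; omega
  have : 𝔮.IsPrime := ⟨(Ideal.ne_top_iff_one _).2 fun k => h1 (one_div ϖ ▸ k), fun {a c} k => by
    rw [hq, hq]
    by_cases ea : (a : K) = 0
    · exact Or.inl (Or.inl ea)
    by_cases ec : (c : K) = 0
    · exact Or.inr (Or.inl ec)
    have k1 : 1 ≤ v.ord ζ (a * c) := ((hq _).1 k).resolve_left (mul_ne_zero ea ec)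
    have k2 := (v.s3_mem ζ ea).1 (hCO a.2)
    have k3 := (v.s3_mem ζ ec).1 (hCO c.2)
    rw [v.ord_mul ζ _ _ ea ec] at k1
    omega⟩
  have := s3C_int g hi
  have := s3_fd g
  have : CharZero K := charZero_of_injective_algebraMap (algebraMap ℂ K).injective
  let _ : Algebra B K₀ := (Subalgebra.inclusion hB).toRingHom.toAlgebra
  have : IsScalarTower B K₀ K := IsScalarTower.of_algebraMap_eq fun _ => rfl
  refine s3_local p0 ((v.s3_mem ζ p0).2 (by omega)) h1 (fun a ha k => ?_) (fun a ha e => ?_) hb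
    (fun j => hCO (s3C_ge g hi (Algebra.subset_adjoin ⟨j, rfl⟩))) (i := i) (div_self hi) (fun π hπ k => ?_) ?_
  · rw [pm, not_or] at k
    rw [v.s3_mem ζ (inv_ne_zero k.1), v.s3_inv ζ k.1]; omega
  · obtain ⟨d, hd⟩ := Int.eq_ofNat_of_zero_le ((v.s3_mem ζ e).1 ha)
    have k := pow_ne_zero d p0
    refine ⟨d, a / ϖ ^ d, (v.s3_div_mem ζ k).2 (Or.inr ?_), ?_, (div_mul_cancel₀ _ k).symm⟩
    · rw [v.s3_pow ζ p0, p1]; omega
    · rw [inv_div, v.s3_div_mem ζ e, v.s3_pow ζ p0, p1]; omega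
  · by_contra k1
    rw [pm, not_or] at k1
    obtain ⟨a, a1, c, c1, c2, c3, c4⟩ := hloc (φ * π)⁻¹ (by
      rw [v.s3_mem ζ (inv_ne_zero k1.1), v.s3_inv ζ k1.1]; omega)
    obtain ⟨δ, hδ⟩ := s3_trace (K₀ := K₀) (s3C' g hi) 𝔮 (fun N hN => by
      by_contra e
      have k2 : (N : K) / ϖ ∈ v.O ζ := hN
      have k3 := mul_mem ((v.O ζ).algebraMap_mem (N : ℂ)⁻¹) k2
      rw [map_inv₀, map_natCast, ← mul_div_assoc, inv_mul_cancel₀ (Nat.cast_ne_zero.2 e), one_div] at k3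
      exact h1 k3) (x := ⟨c, c1⟩) (by rw [hq, not_or]; exact ⟨c2, by change ¬ 1 ≤ v.ord ζ c; omega⟩)
    have k2 := hφ (a * δ) (mul_mem a1 δ.2)
    refine hδ (⟨π, hπ⟩ * ⟨_, k2⟩) (by rw [map_mul]; exact 𝔮.mul_mem_right _ k) (Subtype.ext ?_)
    have k3 : ((⟨c, c1⟩ * δ : s3C' g hi) : K) = (⟨π, hB hπ⟩ : K₀) • (φ * (a * δ)) := by
      change c * (δ : K) = π * _
      have := k1.1
      rw [← c4]; field_simp [right_ne_zero_of_mul this, left_ne_zero_of_mul this]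
    rw [k3, map_smul]; rfl
  · obtain ⟨a, a1, c, c1, c2, c3, c4⟩ := hloc ϖ ((v.s3_mem ζ p0).2 (by omega))
    have k := Ideal.comap_ne_bot_of_integral_mem (R := B) (I := 𝔮) (x := ⟨a, a1⟩)
      (fun k => mul_ne_zero p0 c2 (c4.trans (congrArg Subtype.val k)))
      (by change a / ϖ ∈ v.O ζ; rw [← c4, mul_div_cancel_left₀ _ p0]; exact hCO c1) (Algebra.IsIntegral.isIntegral _)
    obtain ⟨β, b1, b2⟩ := Submodule.exists_mem_ne_zero_of_ne_bot k
    exact ⟨β, β.2, fun e => b2 (Subtype.ext e), b1⟩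

theorem s3_reg (hl : v.Link g) (ζ : v.ι) {b : Module.Basis (Fin n) K Ω[K⁄ℂ]}
    (hb : ∀ a ∈ v.O ζ, ∀ r, b.repr (KaehlerDifferential.D ℂ K a) r ∈ v.O ζ) {m : ℕ} {f : K}
    (hf : ∀ (l c : ℕ), l + m = c * g.k → ∀ s ∈ g.R l,
      ∃ P : MvPolynomial (Fin n) ℂ, (P = 0 ∨ P.totalDegree + n + 1 ≤ c) ∧
        (Algebra.trace (IntermediateField.adjoin ℂ (range g.z)) K (s * f / g.t 0 ^ c) : K) =
          MvPolynomial.aeval g.z P) :
    v.S3V ζ m 0 (f * (b.toMatrix fun j => KaehlerDifferential.D ℂ K (g.z j)).det) := by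
  obtain ⟨i, hi, hi'⟩ := s3_gen hl g.t_mem g.fin ζ
  obtain ⟨i', hj, hj'⟩ := s3_gen hl g.t'_mem g.fin' ζ
  have h0 := g.t0_ne
  set K₀ := IntermediateField.adjoin ℂ (range g.z)
  have hz : ∀ j, g.t j / g.t 0 ∈ K₀ := fun j => Fin.cases (by rw [div_self h0]; exact one_mem _)
    (fun j => IntermediateField.subset_adjoin _ _ ⟨j, rfl⟩) j
  have hw : ∀ j, g.t j / g.t i ∈ K₀ := fun j => by
    rw [← div_div_div_cancel_right₀ h0]; exact div_mem (hz j) (hz i)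
  have hd : m * g.b * g.k' + m = m * g.a * g.k := by rw [mul_assoc m g.a, g.bez]; ring
  have key := s3_dual hl ζ hi hi' hb (φ := g.t' i' ^ (m * g.b) / g.t i ^ (m * g.a) * f * (g.t i / g.t 0) ^ (n + 1))
    (Algebra.adjoin_le (range_subset_iff.2 hw)) (by
      rintro γ ⟨j, hγ⟩
      obtain ⟨P, p1, p2⟩ := hf _ (m * g.a + j) (by rw [add_right_comm, hd, add_mul]) _
        (g.mul_mem _ _ _ (g.s3_pow (g.t'_mem i') (m * g.b)) _ hγ)
      have k : g.t' i' ^ (m * g.b) / g.t i ^ (m * g.a) * f * (g.t i / g.t 0) ^ (n + 1) * γ =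
          (⟨(g.t 0 / g.t i) ^ (m * g.a + j) * (g.t i / g.t 0) ^ (n + 1),
            mul_mem (pow_mem (hw 0) _) (pow_mem (hz i) _)⟩ : K₀) •
          (g.t' i' ^ (m * g.b) * (γ * g.t i ^ j) * f / g.t 0 ^ (m * g.a + j)) := by
        change _ = (_ * _ : K) * _
        rw [div_pow (g.t 0), pow_add (g.t i)]; field_simp
      rw [k, map_smul]
      change (_ * _ : K) * _ ∈ _
      rw [p2]
      rcases p1 with rfl | p1
      · rw [map_zero, mul_zero]; exact zero_mem _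
      obtain ⟨D, hD⟩ := Nat.exists_eq_add_of_le' (show n + 1 ≤ m * g.a + j by omega)
      rw [hD, pow_add, mul_assoc (_ ^ D), ← mul_pow, div_mul_div_cancel₀ hi, div_self h0, one_pow, mul_one]
      refine s3_deg (Algebra.subset_adjoin (mem_range_self 0)) (fun l => ?_) (by omega)
      rw [GR.z, div_mul_div_cancel₀ h0]
      exact Algebra.subset_adjoin ⟨l.succ, rfl⟩)
  have h1 : (Fin.cons 1 g.z : Fin (n + 1) → K) = fun j => g.t i / g.t 0 * (g.t j / g.t i) := by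
    ext j
    rw [mul_comm, div_mul_div_cancel₀ hi]
    exact Fin.cases (div_self h0).symm (fun _ => rfl) j
  rw [mul_assoc, ← s3M_smul _ _ (div_ne_zero hi h0), ← h1, s3M_cons, mul_assoc] at key
  refine or_iff_not_imp_left.2 fun e => ?_
  have e' := div_ne_zero (pow_ne_zero (m * g.b) hj) (pow_ne_zero (m * g.a) hi)
  rw [v.s3_mem ζ (mul_ne_zero e' e), v.ord_mul ζ _ _ e' e, v.s3_div ζ (pow_ne_zero _ hj) (pow_ne_zero _ hi),
    v.s3_pow ζ hj, v.s3_pow ζ hi] at key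
  have hd' : (m : ℤ) * g.b * g.k' + m = m * g.a * g.k := by exact_mod_cast hd
  push_cast at key
  linear_combination key + (m * g.b : ℤ) * hj' - (m * g.a : ℤ) * hi' - v.L ζ * hd'

theorem stS3 : StS3 := by
  intro n K _ _ v g m _ hl ⟨f, hx, hf⟩
  rcases isEmpty_or_nonempty v.ι with hι | ⟨⟨ζ₀⟩⟩
  · exact ⟨1, one_ne_zero, fun z => hι.elim z, fun z => hι.elim z⟩
  obtain ⟨b₀, -⟩ := v.frame ζ₀
  let dz := basisOfTopLeSpanOfCardEqFinrank (R := K) (fun j => KaehlerDifferential.D ℂ K (g.z j)) (by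
    rw [← KaehlerDifferential.span_range_derivation, Submodule.span_le]
    rintro _ ⟨a, rfl⟩
    obtain ⟨a, a1, c, c1, rfl⟩ := g.frac a
    exact Submodule.span_subset_span (⊤ : Subalgebra ℂ K) K _ (s3_dq g le_top a1 c1 trivial))
    (Module.finrank_eq_card_basis b₀).symm
  have hdz : ⇑dz = fun j => KaehlerDifferential.D ℂ K (g.z j) := coe_basisOfTopLeSpanOfCardEqFinrank _ _ _
  have f0 : (f : K) ≠ 0 := fun e => hx (by rw [show f = 0 from Subtype.ext e, map_zero])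
  have l0 : g.lam ≠ 0 := div_ne_zero (pow_ne_zero _ g.t0_ne) (pow_ne_zero _ g.t'0_ne)
  have y0 := mul_ne_zero f0 (pow_ne_zero m l0)
  have h1 : ∀ ζ (b : Module.Basis (Fin n) K Ω[K⁄ℂ]), (b.toMatrix dz).det ≠ 0 ∧
      v.ord ζ (f * g.lam ^ m / v.form.coef dz) + v.ord ζ (v.form.coef b) =
        v.ord ζ (f * g.lam ^ m * (b.toMatrix dz).det) := fun ζ b => by
    refine ⟨fun e => v.form_ne b (by rw [← v.form.law b dz, e, mul_zero]), ?_⟩
    rw [← v.ord_mul ζ _ _ (div_ne_zero y0 (v.form_ne _)) (v.form_ne _), ← v.form.law b dz, ← mul_assoc,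
      div_mul_cancel₀ _ (v.form_ne _)]
  have h2 : ∀ (O : Subalgebra ℂ K) (b : Module.Basis (Fin n) K Ω[K⁄ℂ]), ∀ y ∈ Submodule.span O (range b), ∀ r,
      b.repr y r ∈ O := fun O b y hy r => by
    obtain ⟨o, ho⟩ := (b.mem_span_iff_repr_mem O y).1 hy r
    rw [← ho]; exact o.2
  refine ⟨f * g.lam ^ m / v.form.coef dz, div_ne_zero y0 (v.form_ne _), fun ζ => ?_, fun ζ hζ => ?_⟩
  · obtain ⟨b, b1, b2⟩ := v.frame ζ
    have := s3_reg hl ζ (b := b) (fun a ha => h2 _ _ _ (b1 ▸ Submodule.subset_span ⟨a, ha, rfl⟩)) (m := m)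
      (f := f * g.lam ^ m) (by simpa only [mul_assoc] using hf)
    rw [← hdz] at this
    rw [b2, ← add_assoc, (h1 ζ b).2]
    exact this.resolve_left (mul_ne_zero y0 (h1 ζ b).1)
  · obtain ⟨b, b1, b2⟩ := v.frame ζ
    obtain ⟨a1, a2, a3⟩ := hl.2 ζ hζ
    have hu : ∀ {s : K} {j : ℕ}, s ≠ 0 → g.τ / s ^ j ∈ g.A → s ^ j ∈ g.R (g.c * g.k * g.k') →
        v.ord ζ g.τ = j * v.ord ζ s := fun {s j} s0 s1 s2 => by
      have := v.s3_unit ζ (div_ne_zero g.τ_ne (pow_ne_zero j s0)) (a1 _ s1) (a1 _ ((g.mem_A _).2 ⟨1, by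
        rwa [inv_div, pow_one, div_mul_cancel₀ _ g.τ_ne, one_mul]⟩))
      rwa [v.s3_div ζ g.τ_ne (pow_ne_zero j s0), v.s3_pow ζ s0, sub_eq_zero] at this
    have u1 := hu g.t0_ne g.unit (by rw [mul_right_comm]; exact g.s3_pow (g.t_mem 0) _)
    have u2 := hu g.t'0_ne g.unit' (g.s3_pow (g.t'_mem 0) _)
    push_cast at u1 u2
    have u3 : v.ord ζ (g.t' 0) + g.k' * v.L ζ = 0 := by
      refine mul_left_cancel₀ (a := (g.c * g.k : ℤ)) (by have := g.c_pos; have := g.k_pos; positivity) ?_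
      linear_combination u1 - u2 + (g.c * g.k' : ℤ) * a3
    have u4 : v.ord ζ g.τ + (g.c * g.k * g.k' : ℕ) * v.L ζ = 0 := by
      push_cast; linear_combination u1 + (g.c * g.k' : ℤ) * a3
    have d1 : (b.toMatrix dz).det ∈ v.O ζ := s3_det_mem _ fun r j => h2 _ _ _ (by
      rw [b1, hdz]; exact Submodule.subset_span ⟨_, a1 _ (g.zA j).2, rfl⟩) r
    have d2 : (dz.toMatrix b).det ∈ v.O ζ := s3_det_mem _ fun r j => h2 _ _ _ (by
      have : b j ∈ Submodule.span (v.O ζ) (range b) := Submodule.subset_span ⟨j, rfl⟩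
      rw [b1] at this
      refine Submodule.span_le.2 ?_ this
      rintro _ ⟨y, hy, rfl⟩
      obtain ⟨p, a, c, c0, c1, c2, c3, rfl⟩ := s3_loc hl ζ (l := g.c * g.k * g.k')
        (by have := g.c_pos; have := g.k_pos; have := g.k'_pos; positivity) hy
      have t0 := pow_ne_zero p g.τ_ne
      rw [hdz, ← div_div_div_cancel_right₀ t0]
      refine s3_dq g a1 ((g.mem_A _).2 ⟨p, by rwa [div_mul_cancel₀ _ t0]⟩)
        ((g.mem_A _).2 ⟨p, by rwa [div_mul_cancel₀ _ t0]⟩) ?_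
      rw [inv_div, v.s3_div_mem ζ c2, v.s3_pow ζ g.τ_ne]
      push_cast at c3 u4
      exact Or.inr (le_of_eq (by linear_combination c3 - (p : ℤ) * u4))) r
    have d3 : (b.toMatrix dz).det⁻¹ = (dz.toMatrix b).det :=
      inv_eq_of_mul_eq_one_right (by rw [← Matrix.det_mul, Module.Basis.toMatrix_mul_toMatrix_flip, Matrix.det_one])
    have hbez : (g.a : ℤ) * g.k = g.b * g.k' + 1 := by exact_mod_cast g.bez
    rw [b2, ← add_assoc, (h1 ζ b).2, v.ord_mul ζ _ _ y0 (h1 ζ b).1, v.s3_unit ζ (h1 ζ b).1 d1 (d3 ▸ d2),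
      v.ord_mul ζ _ _ f0 (pow_ne_zero m l0), a2 f hx, v.s3_pow ζ l0, GR.lam,
      v.s3_div ζ (pow_ne_zero _ g.t0_ne) (pow_ne_zero _ g.t'0_ne), v.s3_pow ζ g.t0_ne, v.s3_pow ζ g.t'0_ne]
    linear_combination (m * g.a : ℤ) * a3 - (m * g.b : ℤ) * u3 - m * v.L ζ * hbez

end Crest.Agent.R271
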