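import Crest.Agent.R271.Defs

/-! # Row 271, block S3: the tame bound for the different, via embeddings. -/

set_option autoImplicit false

namespace Crest.Agent.R271

/-- If `x ∉ 𝔮` then some multiple of `x` has its trace outside `𝔮 ∩ B`. -/
theorem s3_trace {B K₀ K : Type} [CommRing B] [Field K₀] [Field K] [Algebra B K₀] [Algebra K₀ K] [Algebra B K]
    [IsScalarTower B K₀ K] [FiniteDimensional K₀ K] [Algebra.IsSeparable K₀ K] (C : Subalgebra B K)
    [Algebra.IsIntegral B C] (𝔮 : Ideal C) [hq : 𝔮.IsPrime] (hN : ∀ N : ℕ, (N : C) ∈ 𝔮 → N = 0) {x : C}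
    (hx : x ∉ 𝔮) : ∃ δ : C, ∀ π : B, algebraMap B C π ∈ 𝔮 →
      Algebra.trace K₀ K (x * δ : C) ≠ algebraMap B K₀ π := by
  classical
  let Ω := AlgebraicClosure K
  let D := integralClosure B Ω
  let e : (K →ₐ[K₀] Ω) → C →ₐ[B] D := fun σ => ((σ.restrictScalars B).comp C.val).codRestrict D fun c =>
    (Algebra.IsIntegral.isIntegral c).map _
  let σ₀ : K →ₐ[K₀] Ω := IsScalarTower.toAlgHom K₀ K Ω
  obtain ⟨Q, hQ, hQq⟩ : ∃ Q : Ideal D, Q.IsPrime ∧ Q.comap (e σ₀) = 𝔮 := by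
    let _ : Algebra C D := (e σ₀).toRingHom.toAlgebra
    have : IsScalarTower B C D := IsScalarTower.of_algebraMap_eq fun b => ((e σ₀).commutes b).symm
    have : Algebra.IsIntegral C D := ⟨fun d => (Algebra.IsIntegral.isIntegral (R := B) d).tower_top⟩
    refine Ideal.exists_ideal_over_prime_of_isIntegral_of_isDomain 𝔮 fun c hc => ?_
    have : σ₀ c = 0 := congrArg Subtype.val (RingHom.mem_ker.1 hc)
    rw [show c = 0 from Subtype.ext ((map_eq_zero σ₀).1 this)]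
    exact 𝔮.zero_mem
  have h1 : ∀ σ, (Q.comap (e σ)).comap (algebraMap B C) = 𝔮.comap (algebraMap B C) := fun σ => by
    ext b
    rw [← hQq]
    simp only [Ideal.mem_comap, AlgHom.commutes]
  have h2 : ∀ σ, ∃ η : C, η ∉ 𝔮 ∧ (Q.comap (e σ) ≠ 𝔮 → e σ η ∈ Q) := fun σ => by
    by_cases h : Q.comap (e σ) = 𝔮
    · exact ⟨1, (Ideal.ne_top_iff_one _).1 hq.ne_top, fun k => (k h).elim⟩
    · have : ¬ Q.comap (e σ) ≤ 𝔮 := fun k =>
        (Ideal.IsIntegral.comap_lt_comap (R := B) (lt_of_le_of_ne k h)).ne (h1 σ)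
      obtain ⟨η, k1, k2⟩ := SetLike.not_le_iff_exists.1 this
      exact ⟨η, k2, fun _ => k1⟩
  choose η η1 η2 using h2
  have h3 : x * ∏ σ, η σ ∉ 𝔮 := fun k => (hq.mem_or_mem k).elim hx fun k => by
    obtain ⟨σ, -, k⟩ := Ideal.IsPrime.prod_mem_iff.1 k
    exact η1 σ k
  obtain ⟨β, b1, b2⟩ := SetLike.exists_of_lt (Ideal.comap_lt_comap_of_integral_mem_sdiff (R := B)
    (J := 𝔮 ⊔ Ideal.span {x * ∏ σ, η σ}) le_sup_left
    ⟨Ideal.mem_sup_right (Ideal.mem_span_singleton_self _), h3⟩ (Algebra.IsIntegral.isIntegral _))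
  obtain ⟨a, ha, y, hy, hay⟩ := Submodule.mem_sup.1 b1
  obtain ⟨δ, rfl⟩ := Ideal.mem_span_singleton'.1 hy
  refine ⟨δ * ∏ σ, η σ, fun π hπ htr => b2 ?_⟩
  have h4 : ∑ σ, e σ (x * (δ * ∏ σ, η σ)) = algebraMap B D π := Subtype.ext <| by
    have := trace_eq_sum_embeddings Ω (K := K₀) (x := ((x * (δ * ∏ σ, η σ) : C) : K))
    rw [htr, ← IsScalarTower.algebraMap_apply] at this
    rw [AddSubmonoidClass.coe_finsetSum]
    exact this.symm
  have h5 : ∀ σ, Ideal.Quotient.mk Q (e σ (x * (δ * ∏ σ, η σ))) =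
      if Q.comap (e σ) = 𝔮 then Ideal.Quotient.mk Q (algebraMap B D β) else 0 := fun σ => by
    split_ifs with h
    · rw [Ideal.Quotient.eq, ← (e σ).commutes, ← map_sub, ← Ideal.mem_comap, h, ← hay,
        show x * (δ * ∏ σ, η σ) - (a + δ * (x * ∏ σ, η σ)) = -a by ring]
      exact 𝔮.neg_mem ha
    · rw [Ideal.Quotient.eq_zero_iff_mem, ← Finset.mul_prod_erase _ _ (Finset.mem_univ σ), map_mul, map_mul, map_mul]
      exact Q.mul_mem_left _ (Q.mul_mem_left _ (Q.mul_mem_right _ (η2 σ h)))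
  have h6 := congrArg (Ideal.Quotient.mk Q) h4
  rw [map_sum, Finset.sum_congr rfl fun σ _ => h5 σ, ← Finset.sum_filter, Finset.sum_const,
    Ideal.Quotient.eq_zero_iff_mem.2 (show algebraMap B D π ∈ Q by
      rw [← (e σ₀).commutes, ← Ideal.mem_comap, hQq]; exact hπ),
    ← map_nsmul, Ideal.Quotient.eq_zero_iff_mem, ← (e σ₀).commutes, ← map_nsmul, ← Ideal.mem_comap, hQq,
    nsmul_eq_mul] at h6
  exact (hq.mem_or_mem h6).resolve_left fun k =>
    Finset.card_ne_zero_of_mem (a := σ₀) (Finset.mem_filter.2 ⟨Finset.mem_univ _, hQq⟩) (hN _ k)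

end Crest.Agent.R271
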