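import Crest.Agent.R271.S3.Tr
import Crest.Agent.R271.S3.Jac

/-! # Row 271, block S3: valuations and the section ring. -/

set_option autoImplicit false
set_option linter.unusedSectionVars false

open Set

namespace Crest.Agent.R271

variable {n : ℕ} {K : Type} [Field K] [Algebra ℂ K]

namespace VM
variable (v : VM n K) (ζ : v.ι)

theorem s3_one : v.ord ζ 1 = 0 := by
  have := v.ord_mul ζ 1 1 one_ne_zero one_ne_zero
  rw [one_mul] at this; omega

theorem s3_inv {f : K} (hf : f ≠ 0) : v.ord ζ f⁻¹ = -v.ord ζ f := by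
  have := v.ord_mul ζ f f⁻¹ hf (inv_ne_zero hf)
  rw [mul_inv_cancel₀ hf, s3_one] at this; omega

theorem s3_div {f g : K} (hf : f ≠ 0) (hg : g ≠ 0) : v.ord ζ (f / g) = v.ord ζ f - v.ord ζ g := by
  rw [div_eq_mul_inv, v.ord_mul ζ _ _ hf (inv_ne_zero hg), v.s3_inv ζ hg]; ring

theorem s3_pow {f : K} (hf : f ≠ 0) (j : ℕ) : v.ord ζ (f ^ j) = j * v.ord ζ f := by
  induction j with
  | zero => simp [s3_one]
  | succ j ih => rw [pow_succ, v.ord_mul ζ _ _ (pow_ne_zero _ hf) hf, ih]; push_cast; ring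

theorem s3_mem {f : K} (hf : f ≠ 0) : f ∈ v.O ζ ↔ 0 ≤ v.ord ζ f := by simp [v.mem_O, hf]

theorem s3_div_mem {f g : K} (hg : g ≠ 0) : f / g ∈ v.O ζ ↔ f = 0 ∨ v.ord ζ g ≤ v.ord ζ f := by
  by_cases hf : f = 0
  · simp [hf, (v.O ζ).zero_mem]
  · rw [v.s3_mem ζ (div_ne_zero hf hg), v.s3_div ζ hf hg]; simp [hf]

theorem s3_unit {f : K} (hf : f ≠ 0) (h : f ∈ v.O ζ) (h' : f⁻¹ ∈ v.O ζ) : v.ord ζ f = 0 := by
  rw [v.s3_mem ζ hf] at h
  rw [v.s3_mem ζ (inv_ne_zero hf), v.s3_inv ζ hf] at h'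
  omega

/-- `s` vanishes to order `≥ a` as a section of `l L` -/
def S3V (l : ℕ) (a : ℤ) (s : K) : Prop := s = 0 ∨ a ≤ v.ord ζ s + l * v.L ζ

variable {v ζ}

theorem S3V.mul {l l' : ℕ} {a a' : ℤ} {s s' : K} (h : v.S3V ζ l a s) (h' : v.S3V ζ l' a' s') :
    v.S3V ζ (l + l') (a + a') (s * s') := by
  by_cases e : s = 0
  · exact Or.inl (by simp [e])
  by_cases e' : s' = 0
  · exact Or.inl (by simp [e'])
  have := h.resolve_left e
  have := h'.resolve_left e'
  right; rw [v.ord_mul ζ _ _ e e']; push_cast; linarith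

theorem S3V.prod {ι : Type} {t : ι → K} {k : ℕ} (h : ∀ i, v.S3V ζ k 1 (t i)) (e : ι → ℕ) (s : Finset ι) :
    v.S3V ζ (k * ∑ j ∈ s, e j) (∑ j ∈ s, e j : ℕ) (∏ j ∈ s, t j ^ e j) := by
  classical
  have h0 : v.S3V ζ 0 0 1 := Or.inr (by simp [s3_one])
  have h1 : ∀ i (p : ℕ), v.S3V ζ (k * p) p (t i ^ p) := fun i p => by
    induction p with
    | zero => simpa using h0
    | succ p ih => simpa [mul_add, pow_succ] using ih.mul (h i)
  induction s using Finset.induction_on with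
  | empty => simpa using h0
  | insert a s ha ih => simpa [Finset.sum_insert ha, Finset.prod_insert ha, mul_add] using (h1 a (e a)).mul ih

end VM

theorem GR.s3_pow (g : GR n K) {l : ℕ} {s : K} (h : s ∈ g.R l) (j : ℕ) : s ^ j ∈ g.R (j * l) := by
  induction j with
  | zero => simpa using g.one_mem
  | succ j ih => rw [pow_succ, add_mul, one_mul]; exact g.mul_mem _ _ _ ih _ h

variable {v : VM n K} {g : GR n K}

theorem s3_V (hl : v.Link g) {l : ℕ} {s : K} (h : s ∈ g.R l) (ζ : v.ι) : v.S3V ζ l 0 s :=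
  ((hl.1 l s).1 h).imp_right fun k => k ζ

theorem s3_u (hl : v.Link g) (i : Fin (v.N + 1)) : v.u i ∈ g.R v.k₀ := (hl.1 _ _).2 (Or.inr (v.u_sec i))

/-- the `t i` have no common zero -/
theorem s3_gen (hl : v.Link g) {k N : ℕ} {t : Fin N → K} (ht : ∀ i, t i ∈ g.R k) (hf : FinOver g.R k t) (ζ : v.ι) :
    ∃ i, t i ≠ 0 ∧ v.ord ζ (t i) + k * v.L ζ = 0 := by
  by_contra! h
  have h1 : ∀ i, v.S3V ζ k 1 (t i) := fun i => by
    by_cases e : t i = 0
    · exact Or.inl e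
    · have := (s3_V hl (ht i) ζ).resolve_left e
      have := h i e
      right; omega
  obtain ⟨q, r, dg, r1, r2⟩ := hf
  obtain ⟨ϖ, p0, p1⟩ := v.unif ζ
  obtain ⟨i, hi⟩ := v.cover ζ
  set j := ∑ a, dg a + 1 with hj
  have y0 : v.u i ^ j * ϖ ≠ 0 := mul_ne_zero (pow_ne_zero _ (v.u_ne i)) p0
  have y1 : v.ord ζ (v.u i ^ j * ϖ) = 1 - (j * v.k₀ : ℕ) * v.L ζ := by
    rw [v.ord_mul ζ _ _ (pow_ne_zero _ (v.u_ne i)) p0, v.s3_pow ζ (v.u_ne i), p1]
    push_cast; linear_combination (j : ℤ) * hi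
  have h2 : v.u i ^ j ∈ (v.O ζ).toSubmodule.comap (LinearMap.mulRight ℂ (v.u i ^ j * ϖ)⁻¹) := by
    refine Submodule.span_le.2 ?_ (r2 _ (g.s3_pow (s3_u hl i) j))
    rintro _ ⟨a, e, h3, rfl⟩
    have h4 := (VM.S3V.prod h1 e Finset.univ).mul (s3_V hl (r1 a) ζ)
    rw [h3] at h4
    refine (v.s3_div_mem ζ y0).2 (h4.imp_right fun h5 => ?_) |> fun k => by rwa [div_eq_mul_inv] at k
    have h6 : dg a ≤ ∑ a, dg a := Finset.single_le_sum (fun _ _ => Nat.zero_le _) (Finset.mem_univ a)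
    have h7 : j ≤ j * v.k₀ := Nat.le_mul_of_pos_right _ v.k₀_pos
    have h8 : ∑ a, e a ≠ 0 := fun k => by rw [k] at h3; omega
    rw [y1]; omega
  have h3 : v.u i ^ j / (v.u i ^ j * ϖ) ∈ v.O ζ := by rw [div_eq_mul_inv]; exact h2
  have := ((v.s3_div_mem ζ y0).1 h3).resolve_left (pow_ne_zero _ (v.u_ne i))
  rw [v.ord_mul ζ _ _ (pow_ne_zero _ (v.u_ne i)) p0] at this
  omega

theorem s3_C (hl : v.Link g) {i : Fin (v.N + 1)} {a : K} (ha : a ∈ v.C i) :
    ∃ J : ℕ, ∀ j, J ≤ j → a * v.u i ^ j ∈ g.R (j * v.k₀) := by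
  by_cases e : a = 0
  · exact ⟨0, fun j _ => by simp [e]⟩
  obtain ⟨M, hM⟩ := ((v.fin_supp a e).image fun z => (-v.ord z a).toNat).bddAbove
  refine ⟨M, fun j hj => (hl.1 _ _).2 (Or.inr fun z => ?_)⟩
  rw [v.ord_mul z _ _ e (pow_ne_zero _ (v.u_ne i)), v.s3_pow z (v.u_ne i)]
  have h1 := v.u_sec i z
  push_cast
  by_cases k : v.ord z a < 0
  · have h2 : (-v.ord z a).toNat ≤ M := hM (mem_image_of_mem _ k)
    have h3 : v.ord z (v.u i) + v.k₀ * v.L z ≠ 0 := fun k' =>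
      k.not_ge ((v.s3_mem z e).1 ((v.mem_C i a).1 ha z k'))
    have h4 : (j : ℤ) * 1 ≤ j * (v.ord z (v.u i) + v.k₀ * v.L z) :=
      mul_le_mul_of_nonneg_left (by omega) (Int.natCast_nonneg j)
    have h5 : -v.ord z a ≤ j := by omega
    linarith
  · have := mul_nonneg (Int.natCast_nonneg j) h1
    linarith

/-- `O ζ` is a homogeneous localisation of the section ring -/
theorem s3_loc (hl : v.Link g) (ζ : v.ι) {l : ℕ} (h0 : 0 < l) {f : K} (hf : f ∈ v.O ζ) :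
    ∃ (j : ℕ) (a c : K), a ∈ g.R (j * l) ∧ c ∈ g.R (j * l) ∧ c ≠ 0 ∧ v.ord ζ c + (j * l : ℕ) * v.L ζ = 0 ∧
      f = a / c := by
  obtain ⟨i, hi⟩ := v.cover ζ
  obtain ⟨a, a1, c, c1, c2, c3, rfl⟩ := v.loc i ζ hi f hf
  obtain ⟨J, hJ⟩ := s3_C hl a1
  obtain ⟨J', hJ'⟩ := s3_C hl c1
  have h1 : J + J' ≤ (J + J') * l := Nat.le_mul_of_pos_right _ h0
  have h2 := pow_ne_zero ((J + J') * l) (v.u_ne i)
  refine ⟨(J + J') * v.k₀, a * v.u i ^ ((J + J') * l), c * v.u i ^ ((J + J') * l), ?_, ?_, mul_ne_zero c2 h2, ?_,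
    (mul_div_mul_right _ _ h2).symm⟩
  · rw [mul_right_comm]; exact hJ _ (by omega)
  · rw [mul_right_comm]; exact hJ' _ (by omega)
  · rw [v.ord_mul ζ _ _ c2 h2, v.s3_pow ζ (v.u_ne i), c3]
    push_cast; linear_combination ((J + J' : ℤ) * l) * hi

theorem s3_fd (g : GR n K) : FiniteDimensional (IntermediateField.adjoin ℂ (range g.z)) K := by
  set K₀ := IntermediateField.adjoin ℂ (range g.z)
  have h1 : IsIntegral (Algebra.adjoin ℂ (range g.z)) g.U := by
    by_contra k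
    obtain ⟨v, -, v2⟩ : ∃ v ∈ g.A, v * Polynomial.aeval g.U (Polynomial.derivative
      (minpoly (Algebra.adjoin ℂ (range g.z)) g.U)) = 1 := g.sep
    simp [minpoly.eq_zero k] at v2
  have h2 : IsIntegral K₀ g.U := h1.map_of_comp_eq
    (Subalgebra.inclusion (IntermediateField.algebra_adjoin_le_adjoin ℂ _)).toRingHom (RingHom.id K) rfl
  let F := (IntermediateField.adjoin K₀ {g.U}).restrictScalars ℂ
  have h3 : insert g.U (range g.z) ⊆ F.toSubalgebra := insert_subset (IntermediateField.mem_adjoin_simple_self K₀ _)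
    fun x hx => (IntermediateField.adjoin K₀ {g.U}).algebraMap_mem ⟨x, IntermediateField.subset_adjoin _ _ hx⟩
  have h4 : g.A ≤ F.toSubalgebra := by
    rw [g.A_eq]
    exact Algebra.adjoin_le (insert_subset (F.inv_mem (Algebra.adjoin_le h3 g.g_mem)) h3)
  have h5 : IntermediateField.adjoin K₀ {g.U} = ⊤ := eq_top_iff.2 fun f _ => by
    obtain ⟨a, a1, c, c1, rfl⟩ := g.frac f
    exact F.div_mem (h4 a1) (h4 c1)
  have := IntermediateField.adjoin.finiteDimensional h2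
  rw [h5] at this
  exact IntermediateField.topEquiv.toLinearEquiv.finiteDimensional

theorem s3_deg {B : Subalgebra ℂ K} {z : Fin n → K} {ρ : K} (h1 : ρ ∈ B) (h2 : ∀ j, z j * ρ ∈ B)
    {P : MvPolynomial (Fin n) ℂ} {D : ℕ} (hP : P.totalDegree ≤ D) : ρ ^ D * MvPolynomial.aeval z P ∈ B := by
  rw [MvPolynomial.aeval_def, MvPolynomial.eval₂_eq', Finset.mul_sum]
  refine B.sum_mem fun d hd => ?_
  have h3 : ∑ j, d j ≤ D := by
    have := (MvPolynomial.le_totalDegree hd).trans hP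
    rwa [Finsupp.sum_fintype _ _ fun _ => rfl] at this
  obtain ⟨p, rfl⟩ := Nat.exists_eq_add_of_le h3
  have := B.mul_mem (B.mul_mem (B.algebraMap_mem (P.coeff d)) (B.prod_mem (t := Finset.univ) fun j _ =>
    B.pow_mem (h2 j) (d j))) (B.pow_mem h1 p)
  convert this using 1
  simp only [mul_pow, Finset.prod_mul_distrib, Finset.prod_pow_eq_pow_sum, pow_add]
  ring

/-- functions on the chart `t i ≠ 0` -/
def s3C (g : GR n K) (i : Fin (n + 1)) : Subalgebra ℂ K where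
  carrier := {f | ∃ j, f * g.t i ^ j ∈ g.R (j * g.k)}
  mul_mem' := fun ⟨j, h⟩ ⟨j', h'⟩ => ⟨j + j', by
    have := g.mul_mem _ _ _ h _ h'
    rwa [mul_mul_mul_comm, ← pow_add, ← add_mul] at this⟩
  add_mem' := fun ⟨j, h⟩ ⟨j', h'⟩ => ⟨j + j', by
    have h1 := g.mul_mem _ _ _ h _ (g.s3_pow (g.t_mem i) j')
    have h2 := g.mul_mem _ _ _ (g.s3_pow (g.t_mem i) j) _ h'
    rw [← add_mul] at h1 h2
    convert Submodule.add_mem _ h1 h2 using 1
    ring⟩
  algebraMap_mem' := fun c => ⟨0, by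
    simpa [Algebra.algebraMap_eq_smul_one] using (g.R 0).smul_mem c g.one_mem⟩

theorem s3C_mem (g : GR n K) {i : Fin (n + 1)} (hi : g.t i ≠ 0) {j : ℕ} {a : K} (ha : a ∈ g.R (j * g.k)) :
    a / g.t i ^ j ∈ s3C g i := ⟨j, by rwa [div_mul_cancel₀ _ (pow_ne_zero _ hi)]⟩

theorem s3C_ge (g : GR n K) {i : Fin (n + 1)} (hi : g.t i ≠ 0) :
    Algebra.adjoin ℂ (range fun j => g.t j / g.t i) ≤ s3C g i :=
  Algebra.adjoin_le (range_subset_iff.2 fun j => by
    simpa using s3C_mem g hi (j := 1) (by rw [one_mul]; exact g.t_mem j))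

/-- the same as an algebra over the polynomial ring -/
def s3C' (g : GR n K) {i : Fin (n + 1)} (hi : g.t i ≠ 0) :
    Subalgebra (Algebra.adjoin ℂ (range fun j => g.t j / g.t i)) K :=
  { (s3C g i).toSubsemiring with algebraMap_mem' := fun β => s3C_ge g hi β.2 }

theorem s3C_int (g : GR n K) {i : Fin (n + 1)} (hi : g.t i ≠ 0) :
    Algebra.IsIntegral (Algebra.adjoin ℂ (range fun j => g.t j / g.t i)) (s3C' g hi) := by
  classical
  set B := Algebra.adjoin ℂ (range fun j => g.t j / g.t i)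
  obtain ⟨q, r, dg, r1, r2⟩ := g.fin
  let ρ : Fin q → K := fun a => if g.k ∣ dg a then r a / g.t i ^ (dg a / g.k) else 0
  have : (s3C' g hi).toSubmodule.FG := by
    refine Submodule.fg_iff_exists_fin_generating_family.2 ⟨q, ρ, le_antisymm (Submodule.span_le.2 ?_) ?_⟩
    · rintro _ ⟨a, rfl⟩
      simp only [ρ]
      split_ifs with h
      · exact s3C_mem g hi (by rw [Nat.div_mul_cancel h]; exact r1 a)
      · exact zero_mem _
    · rintro f ⟨j, hj⟩
      have : f * g.t i ^ j ∈ ((Submodule.span B (range ρ)).restrictScalars ℂ).comap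
          (LinearMap.mulRight ℂ (g.t i ^ j)⁻¹) := by
        refine Submodule.span_le.2 ?_ (r2 _ hj)
        rintro _ ⟨a, e, h3, rfl⟩
        have h4 : g.k ∣ dg a := (Nat.dvd_add_right (Dvd.intro _ rfl)).1 (h3 ▸ Dvd.intro_left _ rfl)
        obtain ⟨p, hp⟩ := h4
        have h5 : j = ∑ l, e l + p := Nat.eq_of_mul_eq_mul_left g.k_pos (by rw [mul_add, ← hp, h3, mul_comm])
        have h6 := (Submodule.span B (range ρ)).smul_mem ⟨∏ l, (g.t l / g.t i) ^ e l, B.prod_mem fun l _ =>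
          B.pow_mem (Algebra.subset_adjoin ⟨l, rfl⟩) _⟩ (Submodule.subset_span ⟨a, rfl⟩)
        change _ * _ ∈ Submodule.span B (range ρ)
        convert h6 using 1
        simp only [ρ, hp, dvd_mul_right, if_true, Nat.mul_div_cancel_left _ g.k_pos, Subalgebra.smul_def, smul_eq_mul,
          div_pow, Finset.prod_div_distrib, Finset.prod_pow_eq_pow_sum, h5, pow_add]
        field_simp
      simpa [hi] using this
  have : Module.Finite B (s3C' g hi) := .of_fg this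
  infer_instance

end Crest.Agent.R271
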